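import Vale.Agent.P372.Metro.Near

open Matrix Kronecker Filter Topology
open scoped ComplexOrder MatrixOrder

namespace Vale.Agent.P372.H672

open Vale.Agent.P372

variable {A B E : Type} [Fintype A] [DecidableEq A] [Fintype B] [DecidableEq B]
  [Fintype E] [DecidableEq E]

theorem weight_nn (n : ℕ) (Ψ : Matrix (A × B) E ℂ) (X : Matrix (Fin n → A) (Fin n → A) ℂ)
    (Y : Matrix (Fin n → B) (Fin n → B) ℂ) : 0 ≤ weight (tpow n (Ψ * Ψᴴ)) X Y := by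
  rw [weight, ← copies_mul]
  have : (X ⊗ₖ Y) * (copies n Ψ * (copies n Ψ)ᴴ) * (X ⊗ₖ Y)ᴴ =
      ((copies n Ψ)ᴴ * (X ⊗ₖ Y)ᴴ)ᴴ * ((copies n Ψ)ᴴ * (X ⊗ₖ Y)ᴴ) := by
    rw [conjTranspose_mul, conjTranspose_conjTranspose, conjTranspose_conjTranspose]
    simp only [Matrix.mul_assoc]
  rw [this, ← hs_eq_re]
  exact hs_nonneg _

/-- If the fidelity inequality holds for all filters on all numbers of copies, there is no key. -/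
theorem not_pos (Ψ : Matrix (A × B) E ℂ) {K : ℝ} (hK : 0 ≤ K)
    (h : ∀ (n : ℕ) (X₀ X₁ : Matrix (Fin n → A) (Fin n → A) ℂ)
      (Y₀ Y₁ : Matrix (Fin n → B) (Fin n → B) ℂ),
      2 * traceNorm ((X₀ ⊗ₖ Y₀) * tpow n (Ψ * Ψᴴ) * (X₁ ⊗ₖ Y₁)ᴴ) ≤
        √(weight (tpow n (Ψ * Ψᴴ)) X₀ Y₀ * weight (tpow n (Ψ * Ψᴴ)) X₁ Y₁) +
          K * √(weight (tpow n (Ψ * Ψᴴ)) X₀ Y₁ * weight (tpow n (Ψ * Ψᴴ)) X₁ Y₀)) :
    ¬ 0 < distillableKey Ψ := by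
  intro hp
  have hK5 : 0 < 4 * (5 + K) := by linarith
  obtain ⟨e, he, hee⟩ : ∃ e : ℝ, 0 < e ∧ (5 + K) * e = 1 / 4 :=
    ⟨1 / (4 * (5 + K)), by positivity, by field_simp⟩
  obtain ⟨n, hn, c, X₀, X₁, Y₀, Y₁, hc, h1, h2, h3, h4, h5⟩ := Metro.near_of_pos Ψ hp he
  have h6 := h n X₀ X₁ Y₀ Y₁
  have g1 := abs_le.mp h1
  have g2 := abs_le.mp h2
  have hec : 0 < e * c := mul_pos he hc
  have b1 : √(weight (tpow n (Ψ * Ψᴴ)) X₀ Y₀ * weight (tpow n (Ψ * Ψᴴ)) X₁ Y₁) ≤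
      c / 2 + e * c := by
    rw [← Real.sqrt_sq (by linarith : 0 ≤ c / 2 + e * c)]
    refine Real.sqrt_le_sqrt ?_
    rw [sq]
    exact mul_le_mul (by linarith) (by linarith) (weight_nn _ _ _ _) (by linarith)
  have b2 : √(weight (tpow n (Ψ * Ψᴴ)) X₀ Y₁ * weight (tpow n (Ψ * Ψᴴ)) X₁ Y₀) ≤ e * c := by
    rw [← Real.sqrt_sq hec.le]
    refine Real.sqrt_le_sqrt ?_
    rw [sq]
    exact mul_le_mul h3 h4 (weight_nn _ _ _ _) hec.le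
  have b3 := mul_le_mul_of_nonneg_left b2 hK
  have b4 : (5 + K) * e * c = 1 / 4 * c := by rw [hee]
  nlinarith

/-- The trivial protocol: the distillable key is nonnegative. -/
theorem key_nonneg (Ψ : Matrix (A × B) E ℂ) (hΨ : (Ψ * Ψᴴ).trace = 1) :
    0 ≤ distillableKey Ψ := by
  refine le_sSup ⟨fun _ => 0, fun _ => 0, fun n => ⟨Unit, inferInstance, fun _ _ => 1,
    fun _ _ => 1, LOCC.output (fun _ => 1) (fun _ => 1) (fun _ => PosSemidef.one) (by simp)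
      (fun _ => PosSemidef.one) (by simp), ?_⟩, tendsto_const_nhds, ?_⟩
  · refine ⟨fun _ => eve (copies n Ψ) 1 1,
      fun _ => eve_posSemidef _ PosSemidef.one PosSemidef.one, ?_, ?_⟩
    · simp only [Finset.univ_unique, Finset.sum_const, Finset.card_singleton, one_smul]
      rw [trace_eve_one]
      exact trace_copies n Ψ hΨ
    · simp
  · simp

/-- The fidelity inequality for all filters implies that the distillable key is zero. -/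
theorem key_zero (Ψ : Matrix (A × B) E ℂ) (hΨ : (Ψ * Ψᴴ).trace = 1) {K : ℝ} (hK : 0 ≤ K)
    (h : ∀ (n : ℕ) (X₀ X₁ : Matrix (Fin n → A) (Fin n → A) ℂ)
      (Y₀ Y₁ : Matrix (Fin n → B) (Fin n → B) ℂ),
      2 * traceNorm ((X₀ ⊗ₖ Y₀) * tpow n (Ψ * Ψᴴ) * (X₁ ⊗ₖ Y₁)ᴴ) ≤
        √(weight (tpow n (Ψ * Ψᴴ)) X₀ Y₀ * weight (tpow n (Ψ * Ψᴴ)) X₁ Y₁) +
          K * √(weight (tpow n (Ψ * Ψᴴ)) X₀ Y₁ * weight (tpow n (Ψ * Ψᴴ)) X₁ Y₀)) :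
    distillableKey Ψ = 0 :=
  le_antisymm (not_lt.mp (not_pos Ψ hK h)) (key_nonneg Ψ hΨ)

/-- The negation of the test for all filters implies that the distillable key is zero. -/
theorem key_zero_of_four (Ψ : Matrix (A × B) E ℂ) (hΨ : (Ψ * Ψᴴ).trace = 1)
    (h : ∀ (n : ℕ) (X₀ X₁ : Matrix (Fin n → A) (Fin n → A) ℂ)
      (Y₀ Y₁ : Matrix (Fin n → B) (Fin n → B) ℂ),
      traceNorm ((X₀ ⊗ₖ Y₀) * tpow n (Ψ * Ψᴴ) * (X₁ ⊗ₖ Y₁)ᴴ) ^ 4 ≤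
        weight (tpow n (Ψ * Ψᴴ)) X₀ Y₀ * weight (tpow n (Ψ * Ψᴴ)) X₀ Y₁ *
          weight (tpow n (Ψ * Ψᴴ)) X₁ Y₀ * weight (tpow n (Ψ * Ψᴴ)) X₁ Y₁) :
    distillableKey Ψ = 0 := by
  refine key_zero Ψ hΨ (K := 1) zero_le_one fun n X₀ X₁ Y₀ Y₁ => ?_
  have h1 := h n X₀ X₁ Y₀ Y₁
  have w00 := weight_nn n Ψ X₀ Y₀
  have w01 := weight_nn n Ψ X₀ Y₁
  have w10 := weight_nn n Ψ X₁ Y₀
  have w11 := weight_nn n Ψ X₁ Y₁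
  set a := weight (tpow n (Ψ * Ψᴴ)) X₀ Y₀ with ha
  set b := weight (tpow n (Ψ * Ψᴴ)) X₀ Y₁ with hb
  set c := weight (tpow n (Ψ * Ψᴴ)) X₁ Y₀ with hc
  set d := weight (tpow n (Ψ * Ψᴴ)) X₁ Y₁ with hd
  set F := traceNorm ((X₀ ⊗ₖ Y₀) * tpow n (Ψ * Ψᴴ) * (X₁ ⊗ₖ Y₁)ᴴ) with hF
  have hF0 : 0 ≤ F := traceNorm_nonneg _
  have p0 := Real.sqrt_nonneg (a * d)
  have q0 := Real.sqrt_nonneg (b * c)
  have hp := Real.sq_sqrt (mul_nonneg w00 w11)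
  have hq := Real.sq_sqrt (mul_nonneg w01 w10)
  set p := √(a * d) with hpd
  set q := √(b * c) with hqd
  have h2 : (F ^ 2) ^ 2 ≤ (p * q) ^ 2 := by
    have : a * b * c * d = (p * q) ^ 2 := by rw [mul_pow, hp, hq]; ring
    rw [← this]
    calc (F ^ 2) ^ 2 = F ^ 4 := by ring
      _ ≤ _ := h1
  have h3 : F ^ 2 ≤ p * q := (sq_le_sq₀ (sq_nonneg F) (mul_nonneg p0 q0)).mp h2
  nlinarith [sq_nonneg (p - q), sq_nonneg (2 * F - (p + q))]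

/-- The linear form of the inequality for all filters implies that the distillable key is zero. -/
theorem key_zero_of_lin (Ψ : Matrix (A × B) E ℂ) (hΨ : (Ψ * Ψᴴ).trace = 1)
    (h : ∀ (n : ℕ) (X₀ X₁ : Matrix (Fin n → A) (Fin n → A) ℂ)
      (Y₀ Y₁ : Matrix (Fin n → B) (Fin n → B) ℂ),
      4 * traceNorm ((X₀ ⊗ₖ Y₀) * tpow n (Ψ * Ψᴴ) * (X₁ ⊗ₖ Y₁)ᴴ) ≤
        weight (tpow n (Ψ * Ψᴴ)) X₀ Y₀ + weight (tpow n (Ψ * Ψᴴ)) X₀ Y₁ +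
          weight (tpow n (Ψ * Ψᴴ)) X₁ Y₀ + weight (tpow n (Ψ * Ψᴴ)) X₁ Y₁) :
    distillableKey Ψ = 0 := by
  refine le_antisymm (not_lt.mp fun hp => ?_) (key_nonneg Ψ hΨ)
  obtain ⟨n, hn, c, X₀, X₁, Y₀, Y₁, hc, h1, h2, h3, h4, h5⟩ :=
    Metro.near_of_pos Ψ hp (e := 1 / 16) (by norm_num)
  have h6 := h n X₀ X₁ Y₀ Y₁
  have g1 := abs_le.mp h1
  have g2 := abs_le.mp h2
  linarith

/-- The square form of the inequality for all filters implies that the distillable key is zero. -/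
theorem key_zero_of_sq (Ψ : Matrix (A × B) E ℂ) (hΨ : (Ψ * Ψᴴ).trace = 1)
    (h : ∀ (n : ℕ) (X₀ X₁ : Matrix (Fin n → A) (Fin n → A) ℂ)
      (Y₀ Y₁ : Matrix (Fin n → B) (Fin n → B) ℂ),
      traceNorm ((X₀ ⊗ₖ Y₀) * tpow n (Ψ * Ψᴴ) * (X₁ ⊗ₖ Y₁)ᴴ) ^ 2 ≤
        √(weight (tpow n (Ψ * Ψᴴ)) X₀ Y₀ * weight (tpow n (Ψ * Ψᴴ)) X₁ Y₁) *
          √(weight (tpow n (Ψ * Ψᴴ)) X₀ Y₁ * weight (tpow n (Ψ * Ψᴴ)) X₁ Y₀)) :
    distillableKey Ψ = 0 := by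
  refine key_zero Ψ hΨ (K := 1) zero_le_one fun n X₀ X₁ Y₀ Y₁ => ?_
  have h3 := h n X₀ X₁ Y₀ Y₁
  set p := √(weight (tpow n (Ψ * Ψᴴ)) X₀ Y₀ * weight (tpow n (Ψ * Ψᴴ)) X₁ Y₁) with hpd
  set q := √(weight (tpow n (Ψ * Ψᴴ)) X₀ Y₁ * weight (tpow n (Ψ * Ψᴴ)) X₁ Y₀) with hqd
  set F := traceNorm ((X₀ ⊗ₖ Y₀) * tpow n (Ψ * Ψᴴ) * (X₁ ⊗ₖ Y₁)ᴴ) with hF
  have hF0 : 0 ≤ F := traceNorm_nonneg _
  have p0 : 0 ≤ p := Real.sqrt_nonneg _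
  have q0 : 0 ≤ q := Real.sqrt_nonneg _
  nlinarith [sq_nonneg (p - q), sq_nonneg (2 * F - (p + q))]

end Vale.Agent.P372.H672
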