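import Vale.Agent.P372.FULL.Assembly
import Vale.Agent.P372.H54.Chain

/-! From the chain of `H54` to the linear inequality for the noise `tk`. -/

open Matrix Kronecker Filter Topology
open scoped ComplexOrder MatrixOrder

set_option linter.unusedSectionVars false

namespace Vale.Agent.P372.H672

open Vale.Agent.P372.Fm Vale.Agent.P372.H740 Vale.Agent.P372.H54

variable {m : ℕ}

/-- The one-site noise as a kernel in the convention of `H54`. -/
noncomputable def TK (m : ℕ) : Ker (V m) (V m) := fun j j' i i' => tk m i i' j j'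

theorem app_TK (X : Matrix (V m) (V m) ℂ) : app (TK m) X = ap (tk m) X := rfl

theorem app_kk_TK (X : Matrix (V m × V m) (V m × V m) ℂ) :
    app (kk (TK m) (TK m)) X = T2 m X := rfl

theorem isCP_TK (m : ℕ) : IsCP (TK m) := by
  obtain ⟨R, hR⟩ := exists_factor ((SF_tk m).choi)
  have h : TK m = kraus (fun (l : V m × V m) => (Matrix.of fun j i => star (R l (i, j)) :
      Matrix (V m) (V m) ℂ)) := by
    funext j j' i i'
    have e1 : TK m j j' i i' = choi (tk m) (i, j) (i', j') := rfl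
    rw [e1, hR, mul_apply, kraus]
    refine Finset.sum_congr rfl fun l _ => ?_
    rw [conjTranspose_apply, of_apply, of_apply, star_star]
  rw [h]
  exact isCP_kraus _

theorem dual_TK (M : Matrix (V m) (V m) ℂ) : dual (TK m) M = ap (tk m) M := by
  ext i' i
  rw [dual, ap, Finset.sum_comm]
  refine Finset.sum_congr rfl fun j' _ => Finset.sum_congr rfl fun j _ => ?_
  rw [TK, tk_dual, mul_comm]

theorem dual_kk_TK (M : Matrix (V m × V m) (V m × V m) ℂ) :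
    dual (kk (TK m) (TK m)) M = T2 m M := by
  ext i' i
  rw [dual, T2, ap, Finset.sum_comm]
  refine Finset.sum_congr rfl fun j' _ => Finset.sum_congr rfl fun j _ => ?_
  rw [kk, TK, TK, tk_dual, tk_dual i.2, mul_comm]

theorem good_TK (m : ℕ) : Good (TK m) :=
  ⟨isCP_TK m, by rw [app_TK, ap_tk_one], by rw [dual_TK, ap_tk_one]⟩

/-- The `n`-site noise is a reindexing of `Fm.S`. -/
theorem app_kp_TK (n : ℕ) (X : Matrix (Fin n → V m × V m) (Fin n → V m × V m) ℂ) :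
    app (kp fun _ : Fin n => kk (TK m) (TK m)) X =
      (S m n (X.submatrix (eN (V m) (V m) n).symm (eN (V m) (V m) n).symm)).submatrix
        (eN (V m) (V m) n) (eN (V m) (V m) n) := by
  ext f f'
  rw [submatrix_apply, S_apply, ap, app, ← (eN (V m) (V m) n).sum_comp]
  refine Finset.sum_congr rfl fun g _ => ?_
  rw [← (eN (V m) (V m) n).sum_comp]
  refine Finset.sum_congr rfl fun g' _ => ?_
  rw [submatrix_apply, Equiv.symm_apply_apply, Equiv.symm_apply_apply]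
  rfl

theorem corner_TK (m n : ℕ) : Corner (app (kp fun _ : Fin n => kk (TK m) (TK m))) := by
  intro θ θ' W hθ hB
  set e := eN (V m) (V m) n with he
  have hB' : (fromBlocks (θ.submatrix e.symm e.symm) (W.submatrix e.symm e.symm)
      (W.submatrix e.symm e.symm)ᴴ (θ'.submatrix e.symm e.symm)).PosSemidef := by
    have h2 := hB.submatrix (Sum.map e.symm e.symm)
    have h3 : (fromBlocks θ W Wᴴ θ').submatrix (Sum.map e.symm e.symm)
          (Sum.map e.symm e.symm) = fromBlocks (θ.submatrix e.symm e.symm)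
            (W.submatrix e.symm e.symm) (W.submatrix e.symm e.symm)ᴴ
            (θ'.submatrix e.symm e.symm) := by
      ext (i | i) (j | j) <;> simp [fromBlocks]
    rwa [h3] at h2
  obtain ⟨Z, hZ1, hZ2, hZ3⟩ := H405.start (isFlip_S m n) (hθ.submatrix e.symm.injective) hB'
  have htr : ∀ Y : Matrix (P m n) (P m n) ℂ, (Y.submatrix e e).trace = Y.trace := fun Y => by
    simp only [Matrix.trace, Matrix.diag_apply, submatrix_apply]
    exact Equiv.sum_comp e (fun i => Y i i)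
  have htr' : ∀ Y : Matrix (Fin n → V m × V m) (Fin n → V m × V m) ℂ,
      (Y.submatrix e.symm e.symm).trace = Y.trace := fun Y => by
    simp only [Matrix.trace, Matrix.diag_apply, submatrix_apply]
    exact Equiv.sum_comp e.symm (fun i => Y i i)
  refine ⟨Z.submatrix e e, hZ1.submatrix e, ?_, ?_⟩
  · rw [app_kp_TK, app_kp_TK]
    have h2 := hZ2.submatrix (Sum.map e e)
    have h3 : (fromBlocks (S m n (θ.submatrix e.symm e.symm)) Z Z
        (S m n (θ'.submatrix e.symm e.symm))).submatrix (Sum.map e e) (Sum.map e e) =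
          fromBlocks ((S m n (θ.submatrix e.symm e.symm)).submatrix e e) (Z.submatrix e e)
            (Z.submatrix e e) ((S m n (θ'.submatrix e.symm e.symm)).submatrix e e) := by
      ext (i | i) (j | j) <;> simp [fromBlocks]
    rwa [h3] at h2
  · intro r
    have h4 := hZ3 r
    rw [htr', htr', htr'] at h4
    rw [htr]
    exact h4

/-- The noisy operator. -/
noncomputable def RN (m : ℕ) (Rh : Matrix (V m × V m) (V m × V m) ℂ) :
    Matrix (V m × V m) (V m × V m) ℂ := (2 / 3 : ℂ) • 1 + (1 / 3 : ℂ) • T2 m Rh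

theorem pm_eq (n : ℕ) (Rh : Matrix (V m × V m) (V m × V m) ℂ) :
    ((pm fun _ : Fin n => (2 / 3 : ℂ) • (1 : Matrix (V m × V m) (V m × V m) ℂ) +
      (1 / 3 : ℂ) • dual (kk (TK m) (TK m)) Rh).submatrix (eN (V m) (V m) n).symm
        (eN (V m) (V m) n).symm) = tpow n (RN m Rh) := by
  rw [dual_kk_TK]
  rfl

/-- The linear inequality for corners, definite case. -/
theorem lin_pd (n : ℕ) {Rh : Matrix (V m × V m) (V m × V m) ℂ} (h0 : Rh.PosSemidef)
    (h2 : ((2 : ℂ) • 1 - Rh).PosSemidef) (hne : Rh ≠ 0)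
    {a₀ a₁ b₀ b₁ : Matrix (Fin n → V m) (Fin n → V m) ℂ} (ha₀ : a₀.PosSemidef)
    (hb₀ : b₀.PosSemidef) (ha₁ : a₁.PosDef) (hb₁ : b₁.PosDef) {K : Matrix (P m n) (P m n) ℂ}
    (hK : (fromBlocks (a₁ ⊗ₖ b₁) K Kᴴ (a₀ ⊗ₖ b₀)).PosSemidef) :
    4 * (tpow n (RN m Rh) * K).trace.re ≤
      (tpow n (RN m Rh) * (a₀ ⊗ₖ b₀)).trace.re + (tpow n (RN m Rh) * (a₀ ⊗ₖ b₁)).trace.re +
      (tpow n (RN m Rh) * (a₁ ⊗ₖ b₀)).trace.re + (tpow n (RN m Rh) * (a₁ ⊗ₖ b₁)).trace.re := by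
  set e := eN (V m) (V m) n with he
  obtain ⟨c, hc, hct⟩ : ∃ c : ℝ, 0 < c ∧ Rh.trace = (c : ℂ) := by
    have h3 : 0 ≤ Rh.trace := h0.trace_nonneg
    have h4 : Rh.trace ≠ 0 := fun h => hne (h0.trace_eq_zero_iff.mp h)
    have h5 : Rh.trace = ((Rh.trace.re : ℝ) : ℂ) :=
      Complex.eq_re_of_ofReal_le (r := 0) (by simpa using h3)
    refine ⟨Rh.trace.re, ?_, h5⟩
    rw [h5] at h3 h4
    have h6 : 0 ≤ Rh.trace.re := by exact_mod_cast h3
    exact lt_of_le_of_ne h6 fun h => h4 (by rw [← h]; simp)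
  have hK' : (fromBlocks ((a₁ ⊗ₖ b₁).submatrix e e) (K.submatrix e e) (K.submatrix e e)ᴴ
      ((a₀ ⊗ₖ b₀).submatrix e e)).PosSemidef := by
    have h2 := hK.submatrix (Sum.map e e)
    have h3 : (fromBlocks (a₁ ⊗ₖ b₁) K Kᴴ (a₀ ⊗ₖ b₀)).submatrix (Sum.map e e)
          (Sum.map e e) = fromBlocks ((a₁ ⊗ₖ b₁).submatrix e e)
            (K.submatrix e e) (K.submatrix e e)ᴴ ((a₀ ⊗ₖ b₀).submatrix e e) := by
      ext (i | i) (j | j) <;> simp [fromBlocks]
    rwa [h3] at h2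
  have h6 := chain_pd (good_TK m) (good_TK m) (by rw [app_kk_TK, T2_one])
    (by rw [dual_kk_TK, T2_one]) h0 h2 (by rw [dual_kk_TK]; exact T2_psd h0) hc hct n
    (corner_TK m n) ha₀ hb₀ ha₁ hb₁ hK'
  have hsub : ∀ (N : Matrix (Fin n → V m × V m) (Fin n → V m × V m) ℂ)
      (Y : Matrix (P m n) (P m n) ℂ),
      (N * Y.submatrix e e).trace = (N.submatrix e.symm e.symm * Y).trace := by
    intro N Y
    have h1 : Y = (Y.submatrix e e).submatrix e.symm e.symm := by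
      rw [submatrix_submatrix, Equiv.self_comp_symm, submatrix_id_id]
    conv_rhs => rw [h1, submatrix_mul_equiv]
    simp only [Matrix.trace, Matrix.diag_apply, submatrix_apply]
    exact (Equiv.sum_comp e.symm (fun i => (N * Y.submatrix e e) i i)).symm
  simp only [← he, hsub] at h6
  rw [he, pm_eq] at h6
  have h7 := h6 (1 / 2)
  linarith only [h7]

/-- The linear inequality for invertible filters. -/
theorem lin_isUnit (n : ℕ) {Rh : Matrix (V m × V m) (V m × V m) ℂ} (h0 : Rh.PosSemidef)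
    (h2 : ((2 : ℂ) • 1 - Rh).PosSemidef) (hne : Rh ≠ 0)
    (X₀ X₁ Y₀ Y₁ : Matrix (Fin n → V m) (Fin n → V m) ℂ) (hX₁ : IsUnit X₁) (hY₁ : IsUnit Y₁) :
    4 * traceNorm ((X₀ ⊗ₖ Y₀) * tpow n (RN m Rh) * (X₁ ⊗ₖ Y₁)ᴴ) ≤
      weight (tpow n (RN m Rh)) X₀ Y₀ + weight (tpow n (RN m Rh)) X₀ Y₁ +
        weight (tpow n (RN m Rh)) X₁ Y₀ + weight (tpow n (RN m Rh)) X₁ Y₁ := by
  set Q := tpow n (RN m Rh) with hQ
  obtain ⟨W, hW, hW1⟩ := traceNorm_exists ((X₀ ⊗ₖ Y₀) * Q * (X₁ ⊗ₖ Y₁)ᴴ)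
  have h1 := contr_corner hW (X₀ ⊗ₖ Y₀) (X₁ ⊗ₖ Y₁)
  have e : ∀ (X : Matrix (Fin n → V m) (Fin n → V m) ℂ) (Y : Matrix (Fin n → V m) (Fin n → V m) ℂ),
      (X ⊗ₖ Y)ᴴ * (X ⊗ₖ Y) = (Xᴴ * X) ⊗ₖ (Yᴴ * Y) := fun X Y => by
    rw [conjTranspose_kronecker, ← mul_kronecker_mul]
  rw [e, e] at h1
  have h3 := lin_pd n h0 h2 hne (posSemidef_conjTranspose_mul_self X₀)
    (posSemidef_conjTranspose_mul_self Y₀) (posDef_of_isUnit hX₁) (posDef_of_isUnit hY₁) h1
  have h4 : (Q * ((X₁ ⊗ₖ Y₁)ᴴ * W * (X₀ ⊗ₖ Y₀))).trace.re =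
      traceNorm ((X₀ ⊗ₖ Y₀) * Q * (X₁ ⊗ₖ Y₁)ᴴ) := by
    have h5 : (Q * ((X₁ ⊗ₖ Y₁)ᴴ * W * (X₀ ⊗ₖ Y₀))).trace =
        (W * ((X₀ ⊗ₖ Y₀) * Q * (X₁ ⊗ₖ Y₁)ᴴ)).trace := by
      rw [← Matrix.mul_assoc, trace_mul_comm, trace_mul_comm W]
      simp only [Matrix.mul_assoc]
    rw [h5, hW1, Complex.ofReal_re]
  rw [← hQ, h4] at h3
  simp only [Near.weight_eq_trace]
  exact h3

/-- The linear inequality for all filters. -/
theorem lin_all (n : ℕ) {Rh : Matrix (V m × V m) (V m × V m) ℂ} (h0 : Rh.PosSemidef)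
    (h2 : ((2 : ℂ) • 1 - Rh).PosSemidef) (hne : Rh ≠ 0)
    (X₀ X₁ Y₀ Y₁ : Matrix (Fin n → V m) (Fin n → V m) ℂ) :
    4 * traceNorm ((X₀ ⊗ₖ Y₀) * tpow n (RN m Rh) * (X₁ ⊗ₖ Y₁)ᴴ) ≤
      weight (tpow n (RN m Rh)) X₀ Y₀ + weight (tpow n (RN m Rh)) X₀ Y₁ +
        weight (tpow n (RN m Rh)) X₁ Y₀ + weight (tpow n (RN m Rh)) X₁ Y₁ := by
  set Q := tpow n (RN m Rh) with hQ
  have hev := (eventually_isUnit_add X₁).and (eventually_isUnit_add Y₁)
  have cA : ∀ X : Matrix (Fin n → V m) (Fin n → V m) ℂ,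
      Continuous fun ε : ℝ => X + (ε : ℂ) • (1 : Matrix (Fin n → V m) (Fin n → V m) ℂ) :=
    fun X => continuous_const.add (Complex.continuous_ofReal.smul continuous_const)
  have cK : ∀ (X Y : Matrix (Fin n → V m) (Fin n → V m) ℂ),
      Continuous fun ε : ℝ => (X + (ε : ℂ) • (1 : Matrix (Fin n → V m) (Fin n → V m) ℂ)) ⊗ₖ
        (Y + (ε : ℂ) • (1 : Matrix (Fin n → V m) (Fin n → V m) ℂ)) := fun X Y => by
    refine continuous_matrix fun p q => ?_
    exact ((cA X).matrix_elem _ _).mul ((cA Y).matrix_elem _ _)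
  have cN : ∀ (X X' Y Y' : Matrix (Fin n → V m) (Fin n → V m) ℂ),
      Continuous fun ε : ℝ => ((X + (ε : ℂ) • (1 : Matrix (Fin n → V m) (Fin n → V m) ℂ)) ⊗ₖ
        (Y + (ε : ℂ) • (1 : Matrix (Fin n → V m) (Fin n → V m) ℂ))) * Q *
        ((X' + (ε : ℂ) • (1 : Matrix (Fin n → V m) (Fin n → V m) ℂ)) ⊗ₖ
          (Y' + (ε : ℂ) • (1 : Matrix (Fin n → V m) (Fin n → V m) ℂ)))ᴴ :=
    fun X X' Y Y' => ((cK X Y).matrix_mul continuous_const).matrix_mul
      (cK X' Y').matrix_conjTranspose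
  have cW : ∀ (X Y : Matrix (Fin n → V m) (Fin n → V m) ℂ),
      Continuous fun ε : ℝ => weight Q
        (X + (ε : ℂ) • (1 : Matrix (Fin n → V m) (Fin n → V m) ℂ))
        (Y + (ε : ℂ) • (1 : Matrix (Fin n → V m) (Fin n → V m) ℂ)) := fun X Y =>
    Complex.continuous_re.comp (cN X X Y Y).matrix_trace
  have tL := (((continuous_traceNorm.comp (cN X₀ X₁ Y₀ Y₁)).const_mul (4 : ℝ)).tendsto
    0).mono_left (nhdsWithin_le_nhds (s := {0}ᶜ))
  have tR := (((((cW X₀ Y₀).add (cW X₀ Y₁)).add (cW X₁ Y₀)).add (cW X₁ Y₁)).tendsto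
    0).mono_left (nhdsWithin_le_nhds (s := {0}ᶜ))
  have h5 := le_of_tendsto_of_tendsto tL tR (by
    filter_upwards [hev] with ε hε
    exact lin_isUnit n h0 h2 hne _ _ _ _ hε.1 hε.2)
  simpa only [Function.comp, Pi.add_apply, Complex.ofReal_zero, zero_smul, add_zero] using h5

theorem ne_zero_of_not_isSep {Rh : Matrix (V m × V m) (V m × V m) ℂ}
    (h : ¬ IsSep (RN m Rh)) : Rh ≠ 0 := by
  intro h0
  apply h
  refine ⟨1, fun _ => (2 / 3 : ℂ) • 1, fun _ => 1, fun _ => ?_, fun _ => PosSemidef.one, ?_⟩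
  · have h3 : (0 : ℂ) ≤ 2 / 3 := by
      have : ((2 / 3 : ℝ) : ℂ) = 2 / 3 := by push_cast; ring
      rw [← this]
      exact_mod_cast (by norm_num : (0 : ℝ) ≤ 2 / 3)
    exact PosSemidef.one.smul h3
  · have h4 : T2 m (0 : Matrix (V m × V m) (V m × V m) ℂ) = 0 := ap_zero _
    rw [RN, h0, h4, smul_zero, add_zero]
    simp [smul_kronecker]

/-- **An entangled state with distillable key zero.** -/
theorem entangled_zero :
    ∃ (a b : ℕ) (ρ : Matrix (Fin a × Fin b) (Fin a × Fin b) ℂ), ρ.PosSemidef ∧ ρ.trace = 1 ∧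
      ¬ IsSep ρ ∧ ∀ (E : Type) [Fintype E] [DecidableEq E] (Ψ : Matrix (Fin a × Fin b) E ℂ),
        Ψ * Ψᴴ = ρ → distillableKey Ψ = 0 := by
  obtain ⟨m, Rh, h0, h2, hE⟩ := H507.socketE
  exact FULL.link_lin (RN m Rh) (opR_psd h0) hE fun n X₀ X₁ Y₀ Y₁ =>
    lin_all n h0 h2 (ne_zero_of_not_isSep hE) X₀ X₁ Y₀ Y₁

end Vale.Agent.P372.H672
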